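import Vale.Agent.Lib.P045.SoundL
import Vale.Agent.Lib.P045.L43.D0

/-! All parts of the certificate. -/

namespace Vale.Agent.Lib.P045.L43

open Vale.Agent.Lib.P045

universe u

/-- All families of the certificate from the first checked one on pass their checks. -/
theorem upAll : UpTo 4 3 9 tbl 2 168 := by
  have h := up0
  exact h

/-- The last family is the family with a single edge. -/
theorem root : tbl 167 = [List.replicate 4 0] := by decide +kernel

theorem t0 : tbl 0 = [[0, 0, 0, 0], [0, 0, 1, 1]] := by decide +kernel
theorem t1 : tbl 1 = [[0, 0, 0, 0], [0, 0, 0, 1]] := by decide +kernel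

/-- The unchecked families cannot occur. -/
theorem hbase {V : Type u} (n : Nat) (hn : n < 2) :
    RefutedL 1 4 3 9 V (tbl n) ∧ ∀ e ∈ tbl n, e.length = 4 := by
  interval_cases n
  · rw [t0]
    exact ⟨refutedL_pair (Finset.univ.filter (fun i : Fin 4 => i.val < 2)) (by decide +kernel)
      (by decide +kernel) ⟨3, by norm_num⟩ (by decide +kernel), by simp⟩
  · rw [t1]
    exact ⟨refutedL_pair (Finset.univ.filter (fun i : Fin 4 => i.val < 3)) (by decide +kernel)
      (by decide +kernel) ⟨3, by norm_num⟩ (by decide +kernel), by simp⟩

end Vale.Agent.Lib.P045.L43
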